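import Vale.Agent.P233.RA.IfG
import Vale.Agent.P233.H992.BlkD1

/-! P233, RCDA, block G6 (helper675): finite balls, Bishop–Gromov, proper, Ahlfors regular,
doubling, exponential growth, from the Bishop–Gromov inequality on small balls. -/

set_option linter.all false

open MeasureTheory Measure Filter Topology Metric Set
open scoped ENNReal NNReal MeasureTheory

universe u

namespace Vale.Agent.P233.H675.G6

section growth

variable {M : Type u} [MetricSpace M] [MeasurableSpace M] [BorelSpace M]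
  [SecondCountableTopology M] {m : Measure M}

/-- geodesic space -/
def Gd (M : Type u) [MetricSpace M] : Prop :=
  ∀ x y : M, ∀ s t : ℝ, 0 ≤ s → 0 ≤ t → s + t = dist x y → ∃ w, dist x w = s ∧ dist w y = t

/-- One step of the growth estimate: `m (B_{r+2δ}) ≤ D m (B_{r+δ})` if
`m (B_{8δ}(y)) ≤ D m (B_δ(y))` for all `y`. -/
theorem step (hg : Gd M) {δ : ℝ} (hδ : 0 < δ) {D : ℝ≥0∞}
    (hD : ∀ y : M, m (ball y (8 * δ)) ≤ D * m (ball y δ)) (x : M) {r : ℝ} (hr : 0 < r) :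
    m (ball x (r + 2 * δ)) ≤ D * m (ball x (r + δ)) := by
  obtain ⟨u, hu, hdisj, hcov⟩ :=
    Vitali.exists_disjoint_subfamily_covering_enlargement_closedBall (ball x r) (fun y : M => y)
      (fun _ => δ) δ (fun _ _ => le_rfl) 5 (by norm_num)
  have hcount : u.Countable := hdisj.countable_of_nonempty_interior fun a _ =>
    ⟨a, ball_subset_interior_closedBall (mem_ball_self hδ)⟩
  have h1 : ball x (r + 2 * δ) ⊆ ⋃ y ∈ u, ball y (8 * δ) := by
    intro z hz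
    rw [mem_ball, dist_comm] at hz
    have hmin : max (dist x z - 2 * δ) 0 + min (2 * δ) (dist x z) = dist x z := by
      rcases le_total (2 * δ) (dist x z) with h | h
      · rw [max_eq_left (by linarith), min_eq_left h]; ring
      · rw [max_eq_right (by linarith), min_eq_right h]; ring
    obtain ⟨w, hw1, hw2⟩ := hg x z _ _ (le_max_right _ _) (le_min (by positivity) dist_nonneg) hmin
    have hw : w ∈ ball x r := by
      rw [mem_ball, dist_comm, hw1]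
      exact max_lt (by linarith) hr
    obtain ⟨b, hb, hsub⟩ := hcov w hw
    have h3 := hsub (mem_closedBall_self hδ.le)
    rw [mem_closedBall] at h3
    refine mem_iUnion₂.2 ⟨b, hb, ?_⟩
    rw [mem_ball]
    have h4 := dist_triangle z w b
    rw [dist_comm z w, hw2] at h4
    have h5 := min_le_left (2 * δ) (dist x z)
    linarith
  have h2 : (⋃ y ∈ u, ball y δ) ⊆ ball x (r + δ) := by
    intro z hz
    obtain ⟨y, hy, hz⟩ := mem_iUnion₂.1 hz
    have h3 := hu hy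
    rw [mem_ball] at h3 hz ⊢
    have := dist_triangle z y x
    linarith
  have hdisj' : u.PairwiseDisjoint fun y => ball y δ := fun a ha b hb hab =>
    (hdisj ha hb hab).mono ball_subset_closedBall ball_subset_closedBall
  calc m (ball x (r + 2 * δ)) ≤ m (⋃ y ∈ u, ball y (8 * δ)) := measure_mono h1
    _ ≤ ∑' y : u, m (ball y.1 (8 * δ)) := measure_biUnion_le m hcount _
    _ ≤ ∑' y : u, D * m (ball y.1 δ) := ENNReal.tsum_le_tsum fun y => hD y.1
    _ = D * ∑' y : u, m (ball y.1 δ) := ENNReal.tsum_mul_left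
    _ = D * m (⋃ y ∈ u, ball y δ) := by
        rw [measure_biUnion hcount hdisj' fun y _ => measurableSet_ball]
    _ ≤ D * m (ball x (r + δ)) := by gcongr

theorem steps (hg : Gd M) {δ : ℝ} (hδ : 0 < δ) {D : ℝ≥0∞}
    (hD : ∀ y : M, m (ball y (8 * δ)) ≤ D * m (ball y δ)) (x : M) {r : ℝ} (hr : 0 < r) (k : ℕ) :
    m (ball x (r + δ + k * δ)) ≤ D ^ k * m (ball x (r + δ)) := by
  induction k with
  | zero => simp
  | succ k ih =>
    have h1 := step hg hδ hD x (r := r + k * δ) (by positivity)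
    have e1 : r + ↑k * δ + 2 * δ = r + δ + ((k + 1 : ℕ) : ℝ) * δ := by push_cast; ring
    have e2 : r + ↑k * δ + δ = r + δ + k * δ := by ring
    rw [e1, e2] at h1
    calc m (ball x (r + δ + ((k + 1 : ℕ) : ℝ) * δ)) ≤ D * m (ball x (r + δ + k * δ)) := h1
      _ ≤ D * (D ^ k * m (ball x (r + δ))) := by gcongr
      _ = D ^ (k + 1) * m (ball x (r + δ)) := by rw [pow_succ]; ring

/-- All conclusions from the inequality on small balls: `m (B_r) ≤ (C/t)ⁿ m (B_{tr})` for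
`r ≤ R₁`. -/
theorem all_fin (hg : Gd M) {n : ℕ} {R₁ C : ℝ} (hR₁ : 0 < R₁) (hC : 1 ≤ C)
    (hloc : ∀ (p : M) (r t : ℝ), 0 < r → r ≤ R₁ → 0 < t → t ≤ 1 →
      m (ball p r) ≤ ENNReal.ofReal ((C / t) ^ n) * m (ball p (t * r)))
    (hf : ∀ x : M, ∃ s > 0, m (ball x s) < ∞) :
    (∀ (x : M) (r : ℝ), m (ball x r) < ∞) ∧ ∃ D : ℝ≥0, 1 ≤ D ∧ ∀ (x : M) (k : ℕ),
      m (ball x (R₁ + k * (R₁ / 8))) ≤ (D : ℝ≥0∞) ^ k * m (ball x R₁) := by
  set δ : ℝ := R₁ / 8 with hδ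
  have hδ0 : 0 < δ := by positivity
  set D : ℝ≥0 := Real.toNNReal ((C / (1 / 8)) ^ n) with hDdef
  have hD1 : 1 ≤ D := by
    rw [hDdef, ← Real.toNNReal_one]
    refine Real.toNNReal_le_toNNReal ?_
    refine one_le_pow₀ ?_
    rw [div_div_eq_mul_div, div_one]; linarith
  have hD : ∀ y : M, m (ball y (8 * δ)) ≤ (D : ℝ≥0∞) * m (ball y δ) := by
    intro y
    have h1 := hloc y (8 * δ) (1 / 8) (by positivity) (by rw [hδ]; linarith) (by norm_num)
      (by norm_num)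
    have e : (1 : ℝ) / 8 * (8 * δ) = δ := by ring
    rw [e] at h1
    exact h1
  have hstep : ∀ (x : M) (k : ℕ), m (ball x (R₁ + k * δ)) ≤ (D : ℝ≥0∞) ^ k * m (ball x R₁) := by
    intro x k
    have h1 := steps hg hδ0 hD x (r := R₁ - δ) (by rw [hδ]; linarith) k
    have e : R₁ - δ + δ = R₁ := by ring
    rw [e] at h1
    exact h1
  have hsm : ∀ x : M, m (ball x R₁) < ∞ := by
    intro x
    obtain ⟨s, hs, hfs⟩ := hf x
    set t : ℝ := min 1 (s / R₁) with ht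
    have ht0 : 0 < t := lt_min one_pos (by positivity)
    have h1 := hloc x R₁ t hR₁ le_rfl ht0 (min_le_left _ _)
    refine h1.trans_lt (ENNReal.mul_lt_top ENNReal.ofReal_lt_top ?_)
    refine (measure_mono (ball_subset_ball ?_)).trans_lt hfs
    calc t * R₁ ≤ s / R₁ * R₁ := mul_le_mul_of_nonneg_right (min_le_right _ _) hR₁.le
      _ = s := by field_simp
  refine ⟨fun x r => ?_, D, hD1, hstep⟩
  obtain ⟨k, hk⟩ := exists_nat_gt (r / δ)
  have h1 : r ≤ R₁ + k * δ := by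
    rw [div_lt_iff₀ hδ0] at hk
    linarith
  refine (measure_mono (ball_subset_ball h1)).trans_lt ((hstep x k).trans_lt ?_)
  exact ENNReal.mul_lt_top (ENNReal.pow_lt_top ENNReal.coe_lt_top) (hsm x)

theorem bg_of (hg : Gd M) {n : ℕ} {R₁ C : ℝ} (hR₁ : 0 < R₁) (hC : 1 ≤ C)
    (hloc : ∀ (p : M) (r t : ℝ), 0 < r → r ≤ R₁ → 0 < t → t ≤ 1 →
      m (ball p r) ≤ ENNReal.ofReal ((C / t) ^ n) * m (ball p (t * r)))
    (hf : ∀ x : M, ∃ s > 0, m (ball x s) < ∞) : PD.BG m n := by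
  obtain ⟨hfin, D, hD1, hD⟩ := all_fin hg hR₁ hC hloc hf
  have hC0 : 0 < C := by linarith
  -- small radii
  have hsmall : ∀ (p : M) (R t : ℝ), 0 < R → R ≤ R₁ → 0 < t → t ≤ 1 →
      ENNReal.ofReal ((C ^ n)⁻¹ * t ^ n) * m (ball p R) ≤ m (ball p (t * R)) := by
    intro p R t hR hRR ht ht1
    calc ENNReal.ofReal ((C ^ n)⁻¹ * t ^ n) * m (ball p R)
        ≤ ENNReal.ofReal ((C ^ n)⁻¹ * t ^ n) * (ENNReal.ofReal ((C / t) ^ n)
          * m (ball p (t * R))) := by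
          gcongr
          exact hloc p R t hR hRR ht ht1
      _ = m (ball p (t * R)) := by
          rw [← mul_assoc, ← ENNReal.ofReal_mul (by positivity)]
          have : (C ^ n)⁻¹ * t ^ n * (C / t) ^ n = 1 := by
            rw [div_pow]; field_simp
          rw [this, ENNReal.ofReal_one, one_mul]
  intro R₀ hR₀
  obtain ⟨k, hk⟩ := exists_nat_gt (R₀ / (R₁ / 8))
  have hk' : R₀ ≤ R₁ + k * (R₁ / 8) := by
    rw [div_lt_iff₀ (by positivity)] at hk
    linarith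
  have hDk : (1 : ℝ) ≤ (D : ℝ) ^ k := one_le_pow₀ (by exact_mod_cast hD1)
  refine ⟨(C ^ n)⁻¹ * ((D : ℝ) ^ k)⁻¹, by positivity, fun p R t hR hRR ht ht1 => ?_⟩
  have hle : (C ^ n)⁻¹ * ((D : ℝ) ^ k)⁻¹ * t ^ n ≤ (C ^ n)⁻¹ * t ^ n := by
    have h1 : ((D : ℝ) ^ k)⁻¹ ≤ 1 := inv_le_one_of_one_le₀ hDk
    have h2 : 0 ≤ (C ^ n)⁻¹ * t ^ n := by positivity
    calc (C ^ n)⁻¹ * ((D : ℝ) ^ k)⁻¹ * t ^ n = (C ^ n)⁻¹ * t ^ n * ((D : ℝ) ^ k)⁻¹ := by ring
      _ ≤ (C ^ n)⁻¹ * t ^ n * 1 := mul_le_mul_of_nonneg_left h1 h2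
      _ = _ := mul_one _
  rcases le_total R R₁ with h | h
  · exact (mul_le_mul_left (ENNReal.ofReal_le_ofReal hle) _).trans (hsmall p R t hR h ht ht1)
  · have h1 : m (ball p R) ≤ (D : ℝ≥0∞) ^ k * m (ball p R₁) :=
      (measure_mono (ball_subset_ball (hRR.trans hk'))).trans (hD p k)
    have e : ENNReal.ofReal ((C ^ n)⁻¹ * ((D : ℝ) ^ k)⁻¹ * t ^ n) * (D : ℝ≥0∞) ^ k
        = ENNReal.ofReal ((C ^ n)⁻¹ * t ^ n) := by
      have e2 : (D : ℝ≥0∞) ^ k = ENNReal.ofReal ((D : ℝ) ^ k) := by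
        rw [ENNReal.ofReal_pow D.coe_nonneg, ENNReal.ofReal_coe_nnreal]
      rw [e2, ← ENNReal.ofReal_mul (by positivity)]
      congr 1
      have : (D : ℝ) ^ k ≠ 0 := by positivity
      field_simp
    calc ENNReal.ofReal ((C ^ n)⁻¹ * ((D : ℝ) ^ k)⁻¹ * t ^ n) * m (ball p R)
        ≤ ENNReal.ofReal ((C ^ n)⁻¹ * ((D : ℝ) ^ k)⁻¹ * t ^ n)
          * ((D : ℝ≥0∞) ^ k * m (ball p R₁)) := by gcongr
      _ = ENNReal.ofReal ((C ^ n)⁻¹ * t ^ n) * m (ball p R₁) := by rw [← mul_assoc, e]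
      _ ≤ m (ball p (t * R₁)) := hsmall p R₁ t hR₁ le_rfl ht ht1
      _ ≤ m (ball p (t * R)) :=
          measure_mono (ball_subset_ball (mul_le_mul_of_nonneg_left h ht.le))

theorem growth_of (hg : Gd M) {n : ℕ} {R₁ C : ℝ} (hR₁ : 0 < R₁) (hC : 1 ≤ C)
    (hloc : ∀ (p : M) (r t : ℝ), 0 < r → r ≤ R₁ → 0 < t → t ≤ 1 →
      m (ball p r) ≤ ENNReal.ofReal ((C / t) ^ n) * m (ball p (t * r)))
    (hf : ∀ x : M, ∃ s > 0, m (ball x s) < ∞) (x₀ : M) :
    ∃ c : ℝ, ∀ r > 0, m (ball x₀ r) ≤ ENNReal.ofReal (c * Real.exp (c * r)) := by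
  obtain ⟨hfin, D, hD1, hD⟩ := all_fin hg hR₁ hC hloc hf
  have hD1' : (1 : ℝ) ≤ D := by exact_mod_cast hD1
  have hlog : 0 ≤ Real.log D := Real.log_nonneg hD1'
  set V : ℝ := (m (ball x₀ R₁)).toReal with hV
  have hV0 : 0 ≤ V := ENNReal.toReal_nonneg
  set a : ℝ := Real.log D / (R₁ / 8) with ha
  have ha0 : 0 ≤ a := by positivity
  -- `c ≥ V`, `c ≥ a`
  set c : ℝ := V + a with hc
  refine ⟨c, fun r hr => ?_⟩
  have hδ0 : 0 < R₁ / 8 := by positivity
  set k : ℕ := ⌊r / (R₁ / 8)⌋₊ with hk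
  have h1 : (k : ℝ) * (R₁ / 8) ≤ r := by
    have := Nat.floor_le (a := r / (R₁ / 8)) (by positivity)
    rwa [← hk, le_div_iff₀ hδ0] at this
  have h2 : r ≤ R₁ + k * (R₁ / 8) := by
    have := Nat.lt_floor_add_one (r / (R₁ / 8))
    rw [← hk, div_lt_iff₀ hδ0] at this
    nlinarith
  have h3 : (D : ℝ) ^ k ≤ Real.exp (c * r) := by
    have e1 : (D : ℝ) ^ k = Real.exp (k * Real.log D) := by
      rw [mul_comm, ← Real.rpow_natCast, Real.rpow_def_of_pos (by linarith)]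
    rw [e1, Real.exp_le_exp]
    have e2 : (k : ℝ) * Real.log D = a * (k * (R₁ / 8)) := by
      rw [ha]; field_simp
    rw [e2]
    calc a * (k * (R₁ / 8)) ≤ a * r := mul_le_mul_of_nonneg_left h1 ha0
      _ ≤ c * r := mul_le_mul_of_nonneg_right (by linarith) hr.le
  calc m (ball x₀ r) ≤ m (ball x₀ (R₁ + k * (R₁ / 8))) := measure_mono (ball_subset_ball h2)
    _ ≤ (D : ℝ≥0∞) ^ k * m (ball x₀ R₁) := hD x₀ k
    _ = ENNReal.ofReal ((D : ℝ) ^ k * V) := by
        rw [ENNReal.ofReal_mul (by positivity), ENNReal.ofReal_pow D.coe_nonneg, ENNReal.ofReal_coe_nnreal,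
          hV, ENNReal.ofReal_toReal (hfin x₀ R₁).ne]
    _ ≤ ENNReal.ofReal (c * Real.exp (c * r)) := by
        refine ENNReal.ofReal_le_ofReal ?_
        calc (D : ℝ) ^ k * V ≤ Real.exp (c * r) * c :=
              mul_le_mul h3 (by linarith) hV0 (Real.exp_pos _).le
          _ = c * Real.exp (c * r) := mul_comm _ _

/-- Everything, for a Hausdorff measure. -/
theorem geoN_of [CompleteSpace M] [Nonempty M] (hg : Gd M) {n : ℕ} (hm : m = μH[(n : ℝ)])
    {R₁ C : ℝ} (hR₁ : 0 < R₁) (hC : 1 ≤ C)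
    (hloc : ∀ (p : M) (r t : ℝ), 0 < r → r ≤ R₁ → 0 < t → t ≤ 1 →
      m (ball p r) ≤ ENNReal.ofReal ((C / t) ^ n) * m (ball p (t * r)))
    (hf : ∀ x : M, ∃ s > 0, m (ball x s) < ∞) (hpos : ∀ (x : M) (s : ℝ), 0 < s → 0 < m (ball x s)) :
    RG.GeoN m n := by
  have hfin := (all_fin hg hR₁ hC hloc hf).1
  have hop : m.IsOpenPosMeasure := by
    refine ⟨fun U hU hne h0 => ?_⟩
    obtain ⟨x, hx⟩ := hne
    obtain ⟨s, hs, hsub⟩ := Metric.isOpen_iff.1 hU x hx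
    have := (hpos x s hs).trans_le (measure_mono hsub)
    exact this.ne' h0
  have hbg := bg_of hg hR₁ hC hloc hf
  have hU := H992.bgUnif_of_bg hbg
  have hlen : H992.IsLen M := by
    intro x y s t hs ht hst e he
    obtain ⟨w, h1, h2⟩ := hg x y s t hs ht hst
    exact ⟨w, by linarith, by linarith⟩
  obtain ⟨hP, hT⟩ := H992.metric_D1 hm hfin hlen hU.bgLoc
  refine ⟨hop, hfin, hbg, ⟨hP, hg, hT.vol hfin, hU.doubling⟩, ?_⟩
  obtain ⟨x₀⟩ := ‹Nonempty M›
  obtain ⟨c, hc⟩ := growth_of hg hR₁ hC hloc hf x₀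
  exact ⟨x₀, c, hc⟩

end growth

/-- **Block G6** -/
theorem blk_G6 : RG.Blk_G6.{u} := by
  intro M _ _ _ _ _ n κ hA hR hD
  have hne : Nonempty M := by
    by_contra h
    rw [not_nonempty_iff] at h
    have h3 : (univ : Set M) = ∅ := univ_eq_empty_iff.2 h
    have h4 := hA.dim
    rw [h3, dimH_empty] at h4
    have h5 : ((n : ℝ≥0∞)) = 0 := h4.symm
    rw [Nat.cast_eq_zero] at h5
    have := hA.two_le
    omega
  have hg : Gd M := hA.alex.geodesic
  set R₁ : ℝ := 1 / (√κ + 1) with hR₁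
  have hsq : 0 ≤ √κ := Real.sqrt_nonneg _
  have hR₁0 : 0 < R₁ := by positivity
  have hkR : √κ * R₁ < Real.pi := by
    have h1 : √κ * R₁ ≤ 1 := by
      rw [hR₁, mul_one_div, div_le_one (by positivity)]; linarith
    linarith [Real.pi_gt_three]
  obtain ⟨C, hC, h⟩ := hR R₁ hR₁0
  refine geoN_of hg rfl hR₁0 hC (fun p r t hr hrR ht ht1 => ?_) hD.fin hD.pos
  have h1 := h p t ⟨ht, ht1⟩ n (by positivity) (ball p r) (ball p (t * r))
    (ball_subset_ball hrR) (fun x hx => by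
      rw [mem_ball, dist_comm] at hx
      exact lt_of_le_of_lt (mul_le_mul_of_nonneg_left (hx.le.trans hrR) hsq) hkR)
    (fun x hx => by
      rw [mem_ball, dist_comm] at hx
      have hd : 0 ≤ dist p x := dist_nonneg
      obtain ⟨w, hw1, hw2⟩ := hg p x (t * dist p x) ((1 - t) * dist p x) (by positivity)
        (mul_nonneg (by linarith) hd) (by ring)
      refine ⟨w, ?_, hw1, hw2⟩
      rw [mem_ball, dist_comm, hw1]
      exact mul_lt_mul_of_pos_left hx ht)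
  rwa [Real.rpow_natCast] at h1

end Vale.Agent.P233.H675.G6
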