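import Vale.Agent.P233.Bd3.B1

/-! P233, block A5J: `|J_lam a - a| ≤ 3 √N Lip(a) √lam` almost everywhere, for bounded Lipschitz
functions `a` of a calculus with `BE(K,N)`. -/

set_option linter.all false

open MeasureTheory Filter Topology Set
open scoped ENNReal NNReal InnerProductSpace

namespace Vale.Agent.P233

variable {M : Type*} [MeasurableSpace M] {m : Measure M} {C : Calc m}

/-- a pointwise bound from integrated bounds, for functions in `L²` -/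
theorem le_const_of_forall_L2 {F : M →ₘ[m] ℝ} (hF : MemLp F 2 m) {K : ℝ} (hK : 0 ≤ K)
    (h : ∀ ψ : M →ₘ[m] ℝ, 0 ≤ ψ → MemLp ψ 2 m → MemLp ψ 1 m → MemLp ψ ∞ m →
      I (F * ψ) ≤ K * I ψ) : ∀ᵐ x ∂m, F x ≤ K := by
  have hFm : StronglyMeasurable (F : M → ℝ) := AEEqFun.stronglyMeasurable F
  have key : ∀ n : ℕ, m {x | K + ((n : ℝ) + 1)⁻¹ < F x} = 0 := by
    intro n
    set ε : ℝ := ((n : ℝ) + 1)⁻¹ with hε
    have hε0 : 0 < ε := by positivity
    set S : Set M := {x | K + ε < F x} with hS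
    have hSm : MeasurableSet S := measurableSet_lt measurable_const hFm.measurable
    have hSfin : m S < ∞ := by
      have h1 : S ⊆ {x | Real.toNNReal ε ≤ ‖F x‖₊} := by
        intro x hx
        have hx' : K + ε < F x := hx
        show Real.toNNReal ε ≤ ‖F x‖₊
        rw [Real.toNNReal_le_iff_le_coe, coe_nnnorm, Real.norm_eq_abs]
        exact le_trans (by linarith) (le_abs_self _)
      exact (measure_mono h1).trans_lt
        (hF.meas_ge_lt_top (by norm_num) (by norm_num) (by simpa using hε0))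
    have hind : ∀ p : ℝ≥0∞, MemLp (S.indicator (fun _ => (1 : ℝ))) p m := fun p =>
      memLp_indicator_const p hSm 1 (Or.inr hSfin.ne)
    set χ : M →ₘ[m] ℝ := AEEqFun.mk _ (hind 2).1 with hχ
    have hχae := AEEqFun.coeFn_mk _ (hind 2).1
    have hχp : ∀ p : ℝ≥0∞, MemLp χ p m := fun p => (memLp_congr_ae hχae).2 (hind p)
    have h1 := h χ (by
      rw [nonneg_iff_ae]
      filter_upwards [hχae] with x hx
      rw [hχ, hx]
      exact Set.indicator_nonneg (fun _ _ => zero_le_one) x) (hχp 2) (hχp 1) (hχp ∞)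
    have h5 : I (F * χ) = ∫ x in S, F x ∂m := by
      rw [← integral_indicator hSm]
      unfold I
      refine integral_congr_ae ?_
      filter_upwards [mul_ae F χ, hχae] with x a1 a2
      rw [a1, hχ, a2]
      by_cases hx : x ∈ S
      · rw [Set.indicator_of_mem hx, Set.indicator_of_mem hx, mul_one]
      · rw [Set.indicator_of_notMem hx, Set.indicator_of_notMem hx, mul_zero]
    have h6 : I χ = m.real S := by
      unfold I
      rw [integral_congr_ae hχae, integral_indicator hSm, setIntegral_const, smul_eq_mul, mul_one]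
    have hFi : IntegrableOn F S m := by
      haveI : IsFiniteMeasure (m.restrict S) :=
        ⟨by rw [Measure.restrict_apply_univ]; exact hSfin⟩
      exact (hF.restrict _).integrable (by norm_num)
    have h7 : ∫ x in S, (K + ε) ∂m ≤ ∫ x in S, F x ∂m := by
      refine setIntegral_mono_on ?_ hFi hSm fun x hx => le_of_lt hx
      exact integrableOn_const (hs := hSfin.ne)
    rw [setIntegral_const, smul_eq_mul] at h7
    rw [h5, h6] at h1
    have h8 : m.real S ≤ 0 := by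
      have h9 : 0 ≤ m.real S := measureReal_nonneg
      by_contra hcon
      push Not at hcon
      linarith only [mul_pos (sub_pos.2 hε0) (sub_pos.2 hcon), h7, h1]
    exact (measureReal_eq_zero_iff hSfin.ne).1 (le_antisymm h8 measureReal_nonneg)
  have h9 : ∀ᵐ x ∂m, ∀ n : ℕ, ¬ (K + ((n : ℝ) + 1)⁻¹ < F x) := by
    rw [ae_all_iff]
    intro n
    exact measure_eq_zero_iff_ae_notMem.1 (key n)
  filter_upwards [h9] with x hx
  by_contra hcon
  push Not at hcon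
  obtain ⟨n, hn⟩ := exists_nat_one_div_lt (show (0 : ℝ) < F x - K by linarith)
  rw [one_div] at hn
  exact hx n (by linarith)

/-- the resolvent identity -/
theorem IsDir.J_sub_J (hC : IsDir C) {δ e : ℝ} (hδ : 0 < δ) (he : 0 < e) {f : M →ₘ[m] ℝ}
    (hf : MemLp f 2 m) :
    C.J e f - C.J δ f = (e - δ) • C.J e (δ⁻¹ • (C.J δ f - f)) := by
  have hLap := hC.J_isLap hδ hf
  set u := C.J δ f with hu
  set h := δ⁻¹ • (u - f) with hh
  have huW : u ∈ C.W := hLap.1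
  have hh2 : MemLp h 2 m := hLap.2.1
  set v := C.J e h with hv
  have hvW : v ∈ C.W := hC.J_mem he hh2
  have hvs := hC.smul_mem (e - δ) _ hvW
  have h1 : C.J e f = u + (e - δ) • v := by
    refine hC.J_eq he ⟨hC.add_mem _ huW _ hvs, fun g hg => ?_⟩
    have hg2 := hC.memLp g hg
    have a1 := (hC.J_spec hδ hf).2 g hg
    have a2 := (hC.J_spec he hh2).2 g hg
    have a3 : I (C.Γ u g) = -I (h * g) := hLap.2.2 g hg
    rw [← hu] at a1
    rw [← hv] at a2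
    rw [add_mul, I_add (mem_mul_22 (hC.memLp _ huW) hg2) (mem_mul_22 (hC.memLp _ hvs) hg2),
      hC.add_left _ huW _ hvs g hg, I_add (hC.Γ_mem1 huW hg) (hC.Γ_mem1 hvs hg),
      smul_mul_assoc, I_smul, hC.smul_left _ _ hvW g hg, I_smul]
    linear_combination a1 + (e - δ) * a2 + (e - δ) * a3
  rw [h1]
  abel

/-- the key estimate: `|J_e Δ J_δ a| ≤ β` -/
theorem IsGamma.J_lap_sup [SigmaFinite m] (hC : IsGamma C) {K N : ℝ} (hN : 0 < N)
    (hB : C.BE K N) {a : M →ₘ[m] ℝ} (ha : a ∈ C.A) {G₀ : ℝ} (hG0 : 0 ≤ G₀)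
    (hG : ∀ᵐ x ∂m, C.Γ a a x ≤ G₀) {δ e : ℝ} (hδ : 0 < δ) (he : 0 < e)
    (hδ2 : 0 < 1 + 2 * δ * K) {β : ℝ} (hβ : 0 < β)
    (hβ2 : N * (G₀ / (1 + 2 * δ * K) / (2 * e) + G₀ / (2 * δ) + |K| * (G₀ / (1 + 2 * δ * K)))
      ≤ β ^ 2) :
    ∀ᵐ x ∂m, |C.J e (δ⁻¹ • (C.J δ a - a)) x| ≤ β := by
  have hD := hC.toIsDir
  have ha2 := hC.memLp a ha.1
  have hLap := hD.J_isLap hδ ha2
  have hGabs : ∀ᵐ x ∂m, |C.Γ a a x| ≤ G₀ := by
    filter_upwards [hG, hD.Γ_nonneg_ae ha.1] with x h1 h2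
    rwa [abs_of_nonneg h2]
  have hgrad := hC.J_grad_le (hC.bei hN hB) hδ hδ2 ha hG0 hGabs
  set G := G₀ / (1 + 2 * δ * K) with hGdef
  have hGnn : 0 ≤ G := div_nonneg hG0 hδ2.le
  set u := C.J δ a with hu
  set h := δ⁻¹ • (u - a) with hh
  have huW : u ∈ C.W := hLap.1
  have hhW : h ∈ C.W := hD.smul_mem _ _ (hD.sub_mem huW ha.1)
  have hh2 : MemLp h 2 m := hC.memLp _ hhW
  have hua := hD.sub_mem huW ha.1
  have e2 : C.Γ u h = δ⁻¹ • (C.Γ u u - C.Γ u a) := by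
    rw [hh, hD.Γ_smul_right _ huW hua, hD.Γ_sub_right huW huW ha.1]
  have hnn := hC.nonneg _ hua
  rw [hD.Γ_sub_left huW ha.1 hua, hD.Γ_sub_right huW huW ha.1,
    hD.Γ_sub_right ha.1 huW ha.1, hD.symm a ha.1 u huW, nonneg_iff_ae] at hnn
  have hΓuu := hC.mem1 u huW
  have hΓuh := hD.Γ_mem1 huW hhW
  -- the weighted `L²` estimate
  have key : ∀ ψ : M →ₘ[m] ℝ, 0 ≤ ψ → MemLp ψ 2 m → MemLp ψ 1 m → MemLp ψ ∞ m →
      I (C.J e ψ * h ^ 2) ≤ β ^ 2 * I ψ := by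
    intro ψ h0 h2 h1 ht
    have hwLap := hD.J_isLap he h2
    have hw0 := hD.J_nonneg he h2 h0
    obtain ⟨B, hB0⟩ := mem_top_iff.1 ht
    have hwb := hD.J_bdd he h2 hB0
    have hw1 := hD.J_L1 he h2 h1 h0
    set w := C.J e ψ with hw
    have hwt : MemLp w ∞ m := mem_top_iff.2 ⟨B, hwb⟩
    have hbe : I (w * (C.Γ u h + K • C.Γ u u + N⁻¹ • h ^ 2)) ≤
        I ((2 : ℝ)⁻¹ • (C.Γ u u * (e⁻¹ • (w - ψ)))) :=
      hB u h w (e⁻¹ • (w - ψ)) hLap hhW hwLap hw0 hwt (mem_smul _ (mem_sub hwt ht))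
    have hhsq := mem_sq hh2
    have hlow : I (N⁻¹ • (w * h ^ 2) - (G₀ / (2 * δ) + |K| * G) • w) ≤
        I (w * (C.Γ u h + K • C.Γ u u + N⁻¹ • h ^ 2)) := by
      refine I_mono (mem_sub (mem_smul _ (mem_mul_top hwt hhsq)) (mem_smul _ hw1.1))
        (mem_mul_top hwt (mem_add (mem_add hΓuh (mem_smul _ hΓuu)) (mem_smul _ hhsq))) ?_
      rw [le_iff_ae, e2]
      filter_upwards [hnn, sub_ae (C.Γ u u - C.Γ u a) (C.Γ u a - C.Γ a a),
        sub_ae (C.Γ u u) (C.Γ u a), sub_ae (C.Γ u a) (C.Γ a a),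
        sub_ae (N⁻¹ • (w * h ^ 2)) ((G₀ / (2 * δ) + |K| * G) • w), smul_ae (w * h ^ 2) N⁻¹,
        smul_ae w (G₀ / (2 * δ) + |K| * G), mul_ae w (h ^ 2),
        mul_ae w (δ⁻¹ • (C.Γ u u - C.Γ u a) + K • C.Γ u u + N⁻¹ • h ^ 2),
        add_ae (δ⁻¹ • (C.Γ u u - C.Γ u a) + K • C.Γ u u) (N⁻¹ • h ^ 2),
        add_ae (δ⁻¹ • (C.Γ u u - C.Γ u a)) (K • C.Γ u u),
        smul_ae (C.Γ u u - C.Γ u a) δ⁻¹, smul_ae (C.Γ u u) K, smul_ae (h ^ 2) N⁻¹,
        nonneg_iff_ae.1 hw0, hG, hgrad, hD.Γ_nonneg_ae huW, hD.Γ_nonneg_ae ha.1]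
        with x a1 a2 a3 a4 a5 a6 a7 a8 a9 a10 a11 a12 a13 a14 b1 b2 b3 b4 b5
      rw [a2, a3, a4] at a1
      rw [a5, a6, a7, a8, a9, a10, a11, a12, a13, a14, a3]
      have hδi : 0 < δ⁻¹ := inv_pos.2 hδ
      have c1 : -(G₀ / (2 * δ)) ≤ δ⁻¹ * (C.Γ u u x - C.Γ u a x) := by
        have : G₀ / (2 * δ) = δ⁻¹ * (G₀ / 2) := by field_simp
        rw [this, ← mul_neg]
        exact mul_le_mul_of_nonneg_left (by linarith) hδi.le
      have c2 : -(|K| * G) ≤ K * C.Γ u u x := by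
        have h1 : |K * C.Γ u u x| ≤ |K| * G := by
          rw [abs_mul, abs_of_nonneg b4]
          exact mul_le_mul_of_nonneg_left b3 (abs_nonneg K)
        linarith [neg_abs_le (K * C.Γ u u x)]
      have c3 : 0 ≤ w x * ((δ⁻¹ * (C.Γ u u x - C.Γ u a x) + K * C.Γ u u x) +
          (G₀ / (2 * δ) + |K| * G)) := mul_nonneg b1 (by linarith)
      linarith only [c3]
    have hup : I ((2 : ℝ)⁻¹ • (C.Γ u u * (e⁻¹ • (w - ψ)))) ≤ I ((G / (2 * e)) • w) := by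
      refine I_mono (mem_smul _ (mem_top_mul hΓuu (mem_smul _ (mem_sub hwt ht))))
        (mem_smul _ hw1.1) ?_
      rw [le_iff_ae]
      filter_upwards [smul_ae (C.Γ u u * (e⁻¹ • (w - ψ))) (2 : ℝ)⁻¹,
        mul_ae (C.Γ u u) (e⁻¹ • (w - ψ)), smul_ae (w - ψ) e⁻¹, sub_ae w ψ,
        smul_ae w (G / (2 * e)), nonneg_iff_ae.1 hw0, nonneg_iff_ae.1 h0, hgrad,
        hD.Γ_nonneg_ae huW] with x a1 a2 a3 a4 a5 b1 b2 b3 b4
      rw [a1, a2, a3, a4, a5]
      have hei : 0 < e⁻¹ := inv_pos.2 he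
      have c1 : C.Γ u u x * (w x - ψ x) ≤ G * w x := by
        have h1 : C.Γ u u x * (w x - ψ x) ≤ C.Γ u u x * w x :=
          mul_le_mul_of_nonneg_left (by linarith) b4
        exact h1.trans (mul_le_mul_of_nonneg_right b3 b1)
      have c2 : G / (2 * e) * w x = 2⁻¹ * (e⁻¹ * (G * w x)) := by field_simp
      rw [c2]
      have c3 : C.Γ u u x * (e⁻¹ * (w x - ψ x)) = e⁻¹ * (C.Γ u u x * (w x - ψ x)) := by ring
      rw [c3]
      have := mul_le_mul_of_nonneg_left c1 hei.le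
      linarith
    rw [I_sub (mem_smul _ (mem_mul_top hwt hhsq)) (mem_smul _ hw1.1), I_smul, I_smul] at hlow
    rw [I_smul, I_smul] at hup
    rw [I_smul] at hbe
    have h3 : N⁻¹ * I (w * h ^ 2) ≤ (G / (2 * e) + G₀ / (2 * δ) + |K| * G) * I w := by
      linarith only [hlow, hbe, hup]
    have hpos : 0 ≤ G / (2 * e) + G₀ / (2 * δ) + |K| * G := by positivity
    have h4 : N⁻¹ * I (w * h ^ 2) ≤ (G / (2 * e) + G₀ / (2 * δ) + |K| * G) * I ψ :=
      h3.trans (mul_le_mul_of_nonneg_left hw1.2 hpos)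
    have h5 : I (w * h ^ 2) ≤ N * ((G / (2 * e) + G₀ / (2 * δ) + |K| * G) * I ψ) := by
      have := mul_le_mul_of_nonneg_left h4 hN.le
      rwa [← mul_assoc, mul_inv_cancel₀ hN.ne', one_mul] at this
    refine h5.trans ?_
    rw [← mul_assoc]
    exact mul_le_mul_of_nonneg_right hβ2 (I_nonneg h0)
  -- the dual estimate
  have key2 : ∀ s : ℝ, |s| = 1 → ∀ ψ : M →ₘ[m] ℝ, 0 ≤ ψ → MemLp ψ 2 m → MemLp ψ 1 m →
      MemLp ψ ∞ m → I (s • C.J e h * ψ) ≤ β * I ψ := by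
    intro s hs ψ h0 h2 h1 ht
    have k1 := key ψ h0 h2 h1 ht
    have hw0 := hD.J_nonneg he h2 h0
    obtain ⟨B, hB0⟩ := mem_top_iff.1 ht
    have hwb := hD.J_bdd he h2 hB0
    have hw1 := hD.J_L1 he h2 h1 h0
    rw [smul_mul_assoc, I_smul, hD.J_symm he hh2 h2]
    set w := C.J e ψ with hw
    have hwt : MemLp w ∞ m := mem_top_iff.2 ⟨B, hwb⟩
    have hw2 : MemLp w 2 m := hD.J_mem2 he h2
    have hhsq := mem_sq hh2
    have k2 : I (s • (h * w)) ≤ I ((2 * β)⁻¹ • (w * h ^ 2) + (β / 2) • w) := by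
      refine I_mono (mem_smul _ (mem_mul_22 hh2 hw2))
        (mem_add (mem_smul _ (mem_mul_top hwt hhsq)) (mem_smul _ hw1.1)) ?_
      rw [le_iff_ae]
      filter_upwards [smul_ae (h * w) s, mul_ae h w,
        add_ae ((2 * β)⁻¹ • (w * h ^ 2)) ((β / 2) • w), smul_ae (w * h ^ 2) (2 * β)⁻¹,
        smul_ae w (β / 2), mul_ae w (h ^ 2), sq_ae h, nonneg_iff_ae.1 hw0]
        with x a1 a2 a3 a4 a5 a6 a7 b1
      rw [a1, a2, a3, a4, a5, a6, a7]
      have c1 : 0 ≤ w x * ((2 * β)⁻¹ * (s * h x - β) ^ 2) := by positivity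
      have hs2 : s ^ 2 = 1 := by rw [← sq_abs, hs, one_pow]
      have c2 : w x * ((2 * β)⁻¹ * (s * h x - β) ^ 2) =
          (2 * β)⁻¹ * (w x * h x ^ 2) + β / 2 * w x - s * (h x * w x) := by
        have : (s * h x - β) ^ 2 = h x ^ 2 - 2 * β * (s * h x) + β ^ 2 := by
          linear_combination h x ^ 2 * hs2
        rw [this]
        field_simp
        ring
      linarith only [c1, c2]
    rw [I_smul, I_add (mem_smul _ (mem_mul_top hwt hhsq)) (mem_smul _ hw1.1), I_smul,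
      I_smul] at k2
    refine k2.trans ?_
    have k3 : (2 * β)⁻¹ * I (w * h ^ 2) ≤ (2 * β)⁻¹ * (β ^ 2 * I ψ) :=
      mul_le_mul_of_nonneg_left k1 (by positivity)
    have k4 : (2 * β)⁻¹ * (β ^ 2 * I ψ) = β / 2 * I ψ := by field_simp
    have k5 : β / 2 * I w ≤ β / 2 * I ψ := mul_le_mul_of_nonneg_left hw1.2 (by positivity)
    linarith only [k3, k4, k5]
  have hJ2 := hD.J_mem2 he hh2
  have r1 := le_const_of_forall_L2 (mem_smul (1 : ℝ) hJ2) hβ.le (key2 1 abs_one)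
  have r2 := le_const_of_forall_L2 (mem_smul (-1 : ℝ) hJ2) hβ.le
    (key2 (-1) (by rw [abs_neg, abs_one]))
  filter_upwards [r1, r2, smul_ae (C.J e h) (1 : ℝ), smul_ae (C.J e h) (-1 : ℝ)]
    with x b1 b2 b3 b4
  rw [b3] at b1
  rw [b4] at b2
  exact abs_le.2 ⟨by linarith, by linarith⟩

/-- the dyadic step -/
theorem IsGamma.J_half [SigmaFinite m] (hC : IsGamma C) {K N : ℝ} (hN : 0 < N)
    (hB : C.BE K N) {a : M →ₘ[m] ℝ} (ha : a ∈ C.A) {L : ℝ} (hL : 0 < L)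
    (hG : ∀ᵐ x ∂m, C.Γ a a x ≤ L ^ 2) {δ : ℝ} (hδ : 0 < δ) (hδK : 4 * δ * |K| ≤ 1) :
    ∀ᵐ x ∂m, |C.J (2 * δ) a x - C.J δ a x| ≤ 3 * √N * L * (√(2 * δ) - √δ) := by
  have hD := hC.toIsDir
  have ha2 := hC.memLp a ha.1
  have hKK : |2 * δ * K| ≤ 1 / 2 := by
    rw [abs_mul, abs_mul, abs_of_pos hδ, abs_of_pos (show (0 : ℝ) < 2 by norm_num)]
    linarith
  have hK1 : -(1 / 2) ≤ 2 * δ * K := (abs_le.1 hKK).1
  have hδ2 : 0 < 1 + 2 * δ * K := by linarith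
  set β := √(3 / 2 * N * L ^ 2 / δ) with hβdef
  have hβpos : 0 < 3 / 2 * N * L ^ 2 / δ := by positivity
  have hβ : 0 < β := Real.sqrt_pos.2 hβpos
  have hβsq : β ^ 2 = 3 / 2 * N * L ^ 2 / δ := Real.sq_sqrt hβpos.le
  have hGle : L ^ 2 / (1 + 2 * δ * K) ≤ 2 * L ^ 2 := by
    rw [div_le_iff₀ hδ2]
    nlinarith [sq_nonneg L]
  have hGnn : 0 ≤ L ^ 2 / (1 + 2 * δ * K) := by positivity
  have h1 := hC.J_lap_sup hN hB ha (sq_nonneg L) hG hδ (show 0 < 2 * δ by positivity) hδ2 hβ (by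
    rw [hβsq]
    have b1 : L ^ 2 / (1 + 2 * δ * K) / (2 * (2 * δ)) ≤ 2 * L ^ 2 / (2 * (2 * δ)) :=
      div_le_div_of_nonneg_right hGle (by positivity)
    have b2 : |K| * (L ^ 2 / (1 + 2 * δ * K)) ≤ 1 / (4 * δ) * (2 * L ^ 2) := by
      refine mul_le_mul ?_ hGle hGnn (by positivity)
      rw [le_div_iff₀ (by positivity)]
      linarith
    have b3 : 3 / 2 * N * L ^ 2 / δ =
        N * (2 * L ^ 2 / (2 * (2 * δ)) + L ^ 2 / (2 * δ) + 1 / (4 * δ) * (2 * L ^ 2)) := by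
      field_simp
      ring
    rw [b3]
    exact mul_le_mul_of_nonneg_left (by linarith) hN.le)
  have h2 := hD.J_sub_J hδ (show 0 < 2 * δ by positivity) ha2
  have hfac : δ * β ≤ 3 * √N * L * (√(2 * δ) - √δ) := by
    have hs2 : √(2 * δ) = √2 * √δ := Real.sqrt_mul (by norm_num) _
    have hβ' : δ * β = √(3 / 2) * (√N * L * √δ) := by
      rw [hβdef, Real.sqrt_div' _ hδ.le, Real.sqrt_mul' _ (sq_nonneg L), Real.sqrt_sq hL.le,
        Real.sqrt_mul' _ hN.le]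
      have : √δ ≠ 0 := (Real.sqrt_pos.2 hδ).ne'
      have hdd : δ = √δ * √δ := (Real.mul_self_sqrt hδ.le).symm
      field_simp
      rw [Real.sq_sqrt hδ.le]
    rw [hβ', hs2]
    have h3 : √(3 / 2) ≤ 3 * (√2 - 1) := by
      rw [Real.sqrt_le_left (by
        have : (1 : ℝ) ≤ √2 := by rw [Real.one_le_sqrt]; norm_num
        linarith)]
      have e1 : √2 ≤ 17 / 12 := by
        rw [Real.sqrt_le_left (by norm_num)]; norm_num
      have e2 : √2 ^ 2 = 2 := Real.sq_sqrt (by norm_num)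
      nlinarith
    have h4 : 0 ≤ √N * L * √δ := by positivity
    calc √(3 / 2) * (√N * L * √δ) ≤ 3 * (√2 - 1) * (√N * L * √δ) :=
          mul_le_mul_of_nonneg_right h3 h4
      _ = 3 * √N * L * (√2 * √δ - √δ) := by ring
  filter_upwards [h1, sub_ae (C.J (2 * δ) a) (C.J δ a), eq_iff_ae.1 h2,
    smul_ae (C.J (2 * δ) (δ⁻¹ • (C.J δ a - a))) (2 * δ - δ)] with x b1 b2 b3 b4
  rw [← b2, b3, b4, abs_mul]
  have : |2 * δ - δ| = δ := by rw [abs_of_pos (by linarith)]; ring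
  rw [this]
  exact (mul_le_mul_of_nonneg_left b1 hδ.le).trans hfac

/-- **A5J**: `|J_lam a - a| ≤ 3 √N L √lam` a.e. if `a` is bounded and `L`-Lipschitz -/
theorem IsGamma.J_sub_le_sqrt [SigmaFinite m] (hC : IsGamma C) {K N : ℝ} (hN : 0 < N)
    (hB : C.BE K N) {a : M →ₘ[m] ℝ} (ha : a ∈ C.A) {L : ℝ} (hL : 0 < L)
    (hG : ∀ᵐ x ∂m, C.Γ a a x ≤ L ^ 2) {lam : ℝ} (hl : 0 < lam) (hl2 : 2 * lam * |K| ≤ 1) :
    ∀ᵐ x ∂m, |C.J lam a x - a x| ≤ 3 * √N * L * √lam := by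
  have hD := hC.toIsDir
  have ha2 := hC.memLp a ha.1
  set q := 3 * √N * L with hq
  have hq0 : 0 ≤ q := by positivity
  set d : ℕ → ℝ := fun n => lam / 2 ^ n with hd
  have hd0 : ∀ n, 0 < d n := fun n => by positivity
  have hdK : ∀ n, 2 * d n * |K| ≤ 1 := by
    intro n
    have h1 : d n ≤ lam := div_le_self hl.le (one_le_pow₀ (by norm_num))
    have := mul_le_mul_of_nonneg_right h1 (abs_nonneg K)
    linarith
  have step : ∀ n, ∀ᵐ x ∂m, |C.J (d n) a x - C.J (d (n + 1)) a x| ≤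
      q * (√(d n) - √(d (n + 1))) := by
    intro n
    have e1 : d n = 2 * d (n + 1) := by
      simp only [hd, pow_succ]
      field_simp
    have h1 := hC.J_half hN hB ha hL hG (hd0 (n + 1)) (by
      have := hdK n
      rw [e1] at this
      linarith)
    rw [← e1] at h1
    exact h1
  have tele : ∀ n, ∀ᵐ x ∂m, |C.J lam a x - C.J (d n) a x| ≤ q * (√lam - √(d n)) := by
    intro n
    induction n with
    | zero =>
      have : d 0 = lam := by simp [hd]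
      rw [this]
      filter_upwards with x
      simp
    | succ n ih =>
      filter_upwards [ih, step n] with x h1 h2
      have h3 := abs_add_le (C.J lam a x - C.J (d n) a x) (C.J (d n) a x - C.J (d (n + 1)) a x)
      have e : C.J lam a x - C.J (d n) a x + (C.J (d n) a x - C.J (d (n + 1)) a x) =
          C.J lam a x - C.J (d (n + 1)) a x := by ring
      rw [e] at h3
      linarith
  have hlim : Tendsto (fun n => I ((C.J (d n) a - a) ^ 2)) atTop (𝓝 0) := by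
    have h1 : Tendsto (fun n => d n * I (C.Γ a a)) atTop (𝓝 0) := by
      have h2 : Tendsto d atTop (𝓝 0) := by
        have h3 : Tendsto (fun n : ℕ => lam * (1 / 2 : ℝ) ^ n) atTop (𝓝 (lam * 0)) :=
          (tendsto_pow_atTop_nhds_zero_of_lt_one (by norm_num) (by norm_num)).const_mul lam
        rw [mul_zero] at h3
        refine h3.congr fun n => ?_
        simp only [hd, one_div, inv_pow]
        field_simp
      have := h2.mul_const (I (C.Γ a a))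
      simpa using this
    refine squeeze_zero (fun n => I_sq_nonneg _) (fun n => (hD.J_est (hd0 n) ha.1).2.2) h1
  obtain ⟨ns, hns, hae⟩ := exists_subseq_of_I_sq (fun n => hD.J_mem2 (hd0 n) ha2) ha2 hlim
  have hall : ∀ᵐ x ∂m, ∀ n, |C.J lam a x - C.J (d n) a x| ≤ q * (√lam - √(d n)) :=
    ae_all_iff.2 tele
  filter_upwards [hae, hall] with x h1 h2
  have h3 : Tendsto (fun n => |C.J lam a x - C.J (d (ns n)) a x|) atTop
      (𝓝 |C.J lam a x - a x|) := (tendsto_const_nhds.sub h1).abs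
  refine le_of_tendsto h3 (Eventually.of_forall fun n => ?_)
  refine (h2 (ns n)).trans ?_
  have := Real.sqrt_nonneg (d (ns n))
  exact mul_le_mul_of_nonneg_left (by linarith) hq0

/-- `|Δ J_lam a| ≤ 3 √N L / √lam` a.e. -/
theorem IsGamma.lap_J_le_sqrt [SigmaFinite m] (hC : IsGamma C) {K N : ℝ} (hN : 0 < N)
    (hB : C.BE K N) {a : M →ₘ[m] ℝ} (ha : a ∈ C.A) {L : ℝ} (hL : 0 < L)
    (hG : ∀ᵐ x ∂m, C.Γ a a x ≤ L ^ 2) {lam : ℝ} (hl : 0 < lam) (hl2 : 2 * lam * |K| ≤ 1) :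
    ∀ᵐ x ∂m, |C.lap (C.J lam a) x| ≤ 3 * √N * L / √lam := by
  have hD := hC.toIsDir
  have ha2 := hC.memLp a ha.1
  have h1 := hC.J_sub_le_sqrt hN hB ha hL hG hl hl2
  rw [hD.lap_eq (hD.J_isLap hl ha2)]
  filter_upwards [h1, smul_ae (C.J lam a - a) lam⁻¹, sub_ae (C.J lam a) a] with x b1 b2 b3
  rw [b2, b3, abs_mul, abs_of_pos (inv_pos.2 hl)]
  have hs : 0 < √lam := Real.sqrt_pos.2 hl
  rw [inv_mul_le_iff₀ hl]
  refine b1.trans (le_of_eq ?_)
  have : lam = √lam * √lam := (Real.mul_self_sqrt hl.le).symm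
  rw [mul_div_assoc', eq_div_iff hs.ne']
  nth_rewrite 3 [this]
  ring

/-- the elementary inequality behind the initial value in Davies' method -/
theorem davies_ineq {ε c a b z : ℝ} (hε : 0 < ε) (hb : b ≤ 0) (hz : z ≤ a)
    (hab : |b - a| ≤ c) :
    (Real.exp (-(ε⁻¹ * b)) - 1) ^ 2 * Real.exp (2 / ε * z) ≤
      ε⁻¹ ^ 2 * Real.exp (2 * c / ε) * b ^ 2 := by
  have hεi : 0 < ε⁻¹ := inv_pos.2 hε
  set y := -(ε⁻¹ * b) with hy
  have hy0 : 0 ≤ y := by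
    rw [hy, ← mul_neg]
    exact mul_nonneg hεi.le (by linarith)
  have h1 : Real.exp y - 1 ≤ y * Real.exp y := by
    have h2 := Real.add_one_le_exp (-y)
    have h3 := Real.exp_pos y
    have h4 : Real.exp (-y) * Real.exp y = 1 := by rw [← Real.exp_add]; simp
    nlinarith
  have h0 : 0 ≤ Real.exp y - 1 := by linarith [Real.add_one_le_exp y]
  have h2 : (Real.exp y - 1) ^ 2 ≤ (y * Real.exp y) ^ 2 := pow_le_pow_left₀ h0 h1 2
  calc (Real.exp y - 1) ^ 2 * Real.exp (2 / ε * z)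
      ≤ (y * Real.exp y) ^ 2 * Real.exp (2 / ε * z) :=
        mul_le_mul_of_nonneg_right h2 (Real.exp_pos _).le
    _ = y ^ 2 * Real.exp (2 * y + 2 / ε * z) := by
        rw [mul_pow, mul_assoc, Real.exp_add, ← Real.exp_nat_mul]
        norm_num
    _ ≤ y ^ 2 * Real.exp (2 * c / ε) := by
        refine mul_le_mul_of_nonneg_left (Real.exp_le_exp.2 ?_) (sq_nonneg y)
        have h3 : 2 * y + 2 / ε * z = 2 * ε⁻¹ * (z - b) := by rw [hy]; ring
        have h4 : 2 * c / ε = 2 * ε⁻¹ * c := by ring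
        rw [h3, h4]
        refine mul_le_mul_of_nonneg_left ?_ (by positivity)
        have := (abs_le.1 hab).1
        linarith
    _ = ε⁻¹ ^ 2 * Real.exp (2 * c / ε) * b ^ 2 := by rw [hy]; ring

/-- **initial value in Davies' method** for the datum `g₀ = exp (-(J_ε a)/ε)`: for every weight
`z ≤ a` the initial integral is at most `ε⁻² ‖a‖² exp (6 √N L / √ε)`. -/
theorem IsGamma.davies_init [SigmaFinite m] (hC : IsGamma C) {K N : ℝ} (hN : 0 < N)
    (hB : C.BE K N) {a : M →ₘ[m] ℝ} (ha : a ∈ C.A) (ha0 : a ≤ 0) {L : ℝ} (hL : 0 < L)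
    (hG : ∀ᵐ x ∂m, C.Γ a a x ≤ L ^ 2) {ε : ℝ} (hε : 0 < ε) (hε2 : 2 * ε * |K| ≤ 1)
    {g₀ Z : M →ₘ[m] ℝ} {z : M → ℝ} (hz : ∀ᵐ x ∂m, z x ≤ a x)
    (hg : ∀ᵐ x ∂m, g₀ x = Real.exp (-(ε⁻¹ * C.J ε a x)) - 1)
    (hZ : ∀ᵐ x ∂m, Z x = Real.exp (2 / ε * z x)) :
    MemLp (g₀ ^ 2 * Z : M →ₘ[m] ℝ) 1 m ∧
      I (g₀ ^ 2 * Z) ≤ ε⁻¹ ^ 2 * Real.exp (6 * √N * L / √ε) * I (a ^ 2) := by
  have hD := hC.toIsDir
  have ha2 := hC.memLp a ha.1
  have h1 := hC.J_sub_le_sqrt hN hB ha hL hG hε hε2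
  have hJ0 : C.J ε a ≤ 0 := by
    have h2 := hD.J_nonneg hε (mem_neg ha2) (neg_nonneg.2 ha0)
    rw [hD.J_neg hε ha2] at h2
    exact neg_nonneg.1 h2
  have hJ2 := hD.J_mem2 hε ha2
  set Q := ε⁻¹ ^ 2 * Real.exp (6 * √N * L / √ε) with hQ
  have hQ0 : 0 ≤ Q := by positivity
  have hexp : 2 * (3 * √N * L * √ε) / ε = 6 * √N * L / √ε := by
    have hs : √ε ≠ 0 := (Real.sqrt_pos.2 hε).ne'
    have h3 : ε = √ε * √ε := (Real.mul_self_sqrt hε.le).symm
    rw [div_eq_div_iff hε.ne' hs]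
    nth_rewrite 3 [h3]
    ring
  have hpt : ∀ᵐ x ∂m, 0 ≤ (g₀ ^ 2 * Z) x ∧ (g₀ ^ 2 * Z) x ≤ (Q • (C.J ε a) ^ 2) x := by
    filter_upwards [h1, hz, hg, hZ, le_iff_ae.1 hJ0, mul_ae (g₀ ^ 2) Z, sq_ae g₀,
      smul_ae ((C.J ε a) ^ 2) Q, sq_ae (C.J ε a), zero_ae (M := M) (m := m)]
      with x b1 b2 b3 b4 b5 b6 b7 b8 b9 b10
    rw [b10] at b5
    rw [b6, b7, b8, b9, b3, b4]
    refine ⟨by positivity, ?_⟩
    have := davies_ineq (z := z x) hε b5 b2 b1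
    rw [hexp] at this
    exact this
  have hmem : MemLp (Q • (C.J ε a) ^ 2 : M →ₘ[m] ℝ) 1 m := mem_smul _ (mem_sq hJ2)
  have hmem2 : MemLp (g₀ ^ 2 * Z : M →ₘ[m] ℝ) 1 m := by
    refine mem_of_le hmem ?_
    filter_upwards [hpt] with x hx
    rw [abs_of_nonneg hx.1]
    exact hx.2.trans (le_abs_self _)
  refine ⟨hmem2, ?_⟩
  have h2 : I (g₀ ^ 2 * Z) ≤ I (Q • (C.J ε a) ^ 2) := by
    refine I_mono hmem2 hmem ?_
    rw [le_iff_ae]
    filter_upwards [hpt] with x hx using hx.2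
  rw [I_smul] at h2
  exact h2.trans (mul_le_mul_of_nonneg_left (hD.J_sq_le hε ha2) hQ0)

end Vale.Agent.P233
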